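import Vale.Agent.P228D.Final

namespace Vale.Agent.Results.P228.DiffEuclid

open Vale.Agent.P228D

/-- A continuous action of the `p`-adic integers on `ℝ^n` by everywhere differentiable maps is
not faithful. -/
theorem result (p : ℕ) [Fact p.Prime] (n : ℕ)
    (a : ℤ_[p] → EuclideanSpace ℝ (Fin n) → EuclideanSpace ℝ (Fin n))
    (h0 : ∀ x, a 0 x = x) (hadd : ∀ g h x, a (g + h) x = a g (a h x))
    (hc : Continuous (fun q : ℤ_[p] × EuclideanSpace ℝ (Fin n) => a q.1 q.2))
    (hd : ∀ g, Differentiable ℝ (a g)) :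
    ∃ g : ℤ_[p], g ≠ 0 ∧ ∀ x, a g x = x := by
  let e := EuclideanSpace.equiv (Fin n) ℝ
  have ha : IsDiffAction p (fun g y => e (a g (e.symm y))) := by
    refine ⟨fun x => by simp [h0], fun g h x => by simp [hadd], ?_, fun g => ?_⟩
    · exact e.continuous.comp (hc.comp (continuous_fst.prodMk
        (e.symm.continuous.comp continuous_snd)))
    · exact e.differentiable.comp ((hd g).comp e.symm.differentiable)
  obtain ⟨m, hm⟩ := final ha
  refine ⟨(p : ℤ_[p]) ^ m, pow_ne_zero _ (by exact_mod_cast (Fact.out : p.Prime).ne_zero),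
    fun x => ?_⟩
  have := hm (e x)
  simp only [ContinuousLinearEquiv.symm_apply_apply] at this
  exact e.injective this

end Vale.Agent.Results.P228.DiffEuclid
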