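import Vale.Agent.P228M.FinalM

namespace Vale.Agent.Results.P228.DiffManifold

open Vale.Agent.P228M
open scoped Manifold

/-- A continuous action of the `p`-adic integers on a connected `C¹` manifold by everywhere
differentiable maps is not faithful. -/
theorem result (p : ℕ) [Fact p.Prime] (n : ℕ) (M : Type) [TopologicalSpace M] [T2Space M]
    [ConnectedSpace M] [ChartedSpace (Fin n → ℝ) M] [IsManifold 𝓘(ℝ, Fin n → ℝ) 1 M]
    (a : ℤ_[p] → M → M) (h0 : ∀ x, a 0 x = x) (hadd : ∀ g h x, a (g + h) x = a g (a h x))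
    (hc : Continuous (fun q : ℤ_[p] × M => a q.1 q.2))
    (hd : ∀ g, MDifferentiable 𝓘(ℝ, Fin n → ℝ) 𝓘(ℝ, Fin n → ℝ) (a g)) :
    ∃ g : ℤ_[p], g ≠ 0 ∧ ∀ x, a g x = x := by
  obtain ⟨m, hm⟩ := finalM (p := p) (n := n) (A := a) ⟨h0, hadd, hc, hd⟩
  exact ⟨(p : ℤ_[p]) ^ m, pow_ne_zero _ (by exact_mod_cast (Fact.out : p.Prime).ne_zero), hm⟩

end Vale.Agent.Results.P228.DiffManifold
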