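import Vale.Agent.P228S.Main

namespace Vale.Agent.Results.P228.SobManifold

open Vale.Agent.P228 Vale.Agent.P228S

theorem result (n p : ℕ) [Fact p.Prime] (M : Type) [TopologicalSpace M] [T2Space M]
    [ConnectedSpace M] [ChartedSpace (Fin n → ℝ) M] (A : ℤ_[p] → M → M) (hA : IsAct A)
    (h : ∀ t : ℤ_[p], SobReg n (A t)) :
    ∃ k : ℕ, ∀ (t : ℤ_[p]) (x : M), A ((p : ℤ_[p]) ^ k * t) x = x :=
  main hA h

end Vale.Agent.Results.P228.SobManifold
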