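import Vale.Agent.P228.Ind

namespace Vale.Agent.Results.P228.Sobolev

open MeasureTheory Vale.Agent.P228

theorem result (n p : ℕ) [Fact p.Prime] (A : ℤ_[p] → (Fin n → ℝ) → (Fin n → ℝ)) (hA : IsAct A)
    (h : ∀ (t : ℤ_[p]) (R : ℝ), ∃ C q β : ℝ, 0 < q ∧ q ≤ n ∧ (n : ℝ) - 1 < β ∧
      ∀ v : Fin n → ℝ, ‖v‖ ≤ 1 →
        ∫ x in Metric.closedBall (0 : Fin n → ℝ) R, ‖A t (x + v) - A t x‖ ^ q ≤ C * ‖v‖ ^ β) :
    ∃ k : ℕ, ∀ (t : ℤ_[p]) (x : Fin n → ℝ), A ((p : ℤ_[p]) ^ k * t) x = x :=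
  main_each hA (by simpa only [Fintype.card_fin] using h)

end Vale.Agent.Results.P228.Sobolev
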